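import Vale.Agent.P310.H855.GenPT

/-!
# P310, W6b: the reduction is computable in polynomial time, with an absolute exponent

The input is `pr u (kap k)` with `u = pr (enc t) (pr (enc extra) pad)`, where `kap k` contains `k`
and `2 ^ (2 (k + 3) + 1)` in unary.
-/

namespace Vale.Agent.P310

open Vale.Agent.Lib.PolyTime

/-- the constant word of the dimension `k`: `k` and `2 ^ (2 (k + 3) + 1)` in unary -/
def kap (k : ℕ) : Word := enc (Un.mk k, Un.mk (2 ^ (2 * (k + 3) + 1)))

/-- the input word of the diagonal machine -/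
def uWord (t : FTable) (extra : ℕ) (pad : Word) : Word := pr (enc t) (pr (enc extra) pad)

/-- the number of vertices -/
def redN (t : FTable) (extra : ℕ) (u : Word) (k F : ℕ) : ℕ :=
  (Gen.data t u (u.length + 2) (k / 4)).nTot k F + min extra ((u.length + 2) ^ 40)

/-- the output of the reduction: the two adjacency matrices -/
def redBits (t : FTable) (extra : ℕ) (u : Word) (k F : ℕ) : List Bool :=
  (Gen.data t u (u.length + 2) (k / 4)).bitsN k F false (redN t extra u k F) ++
    (Gen.data t u (u.length + 2) (k / 4)).bitsN k F true (redN t extra u k F)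

theorem redBits_pt : PT ∅ fun z : (FTable × ℕ × Raw) × (Un × Un) =>
    Raw.mk (redBits z.1.1 z.1.2.1 (enc z.1) z.2.1.v z.2.2.v) := by
  have hu : PT ∅ fun z : (FTable × ℕ × Raw) × (Un × Un) => z.1 := PT.fst'
  have hraw : PT ∅ fun z : (FTable × ℕ × Raw) × (Un × Un) => Raw.mk (enc z.1) := by
    obtain ⟨G, hG, hG'⟩ := hu
    exact ⟨G, hG, fun z => hG' z⟩
  have ht : PT ∅ fun z : (FTable × ℕ × Raw) × (Un × Un) => z.1.1 := hu.fst
  have hx : PT ∅ fun z : (FTable × ℕ × Raw) × (Un × Un) => z.1.2.1 := hu.snd.fst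
  have hw : PT ∅ fun z : (FTable × ℕ × Raw) × (Un × Un) => (enc z.1 : List Bool) :=
    PT.listOfRaw hraw
  have hb : PT ∅ fun z : (FTable × ℕ × Raw) × (Un × Un) => (enc z.1).length + 2 :=
    (PT.rawLength hraw).add (PT.const 2)
  have hbb : PBd fun z : (FTable × ℕ × Raw) × (Un × Un) => (enc z.1).length + 2 :=
    hraw.pbd.add (PBd.const 2)
  have hk : PT ∅ fun z : (FTable × ℕ × Raw) × (Un × Un) => z.2.1.v := PT.unVal PT.snd'.fst
  have hkb : PBd fun z : (FTable × ℕ × Raw) × (Un × Un) => z.2.1.v :=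
    PBd.unVal (PT.snd' (A := ∅) (α := FTable × ℕ × Raw) (β := Un × Un)).fst
  have hF : PT ∅ fun z : (FTable × ℕ × Raw) × (Un × Un) => z.2.2.v := PT.unVal PT.snd'.snd
  have hFb : PBd fun z : (FTable × ℕ × Raw) × (Un × Un) => z.2.2.v :=
    PBd.unVal (PT.snd' (A := ∅) (α := FTable × ℕ × Raw) (β := Un × Un)).snd
  have hg : PT ∅ fun z : (FTable × ℕ × Raw) × (Un × Un) => z.2.1.v / 4 := hk.div (PT.const 4)
  have hgb : PBd fun z : (FTable × ℕ × Raw) × (Un × Un) => z.2.1.v / 4 :=
    hkb.mono fun z => Nat.div_le_self _ _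
  have hD := GenPT.data ht hw hb hbb hg hgb
  have hC : PBd fun z : (FTable × ℕ × Raw) × (Un × Un) =>
      (Gen.data z.1.1 (enc z.1) ((enc z.1).length + 2) (z.2.1.v / 4)).nC :=
    (PBd.const 2).add ((PBd.const 8).mul (hbb.mul hbb))
  have hN := (hD.nTot hk hF).add (PT.min hx (hb.powConst 40))
  have hNb := (hD.pbd_nTot hbb hC hkb hFb).add ((hbb.pow 40).mono fun z =>
    min_le_right z.1.2.1 (((enc z.1).length + 2) ^ 40))
  exact PT.rawOfList (PT.append (hD.bitsN hk hkb hF (PT.const false) hN hNb)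
    (hD.bitsN hk hkb hF (PT.const true) hN hNb))

/-- The reduction: one function `R`, computable in polynomial time, for all `k`. -/
theorem exists_reduction : ∃ R : Word → Word, FP ∅ R ∧
    ∀ (k : ℕ) (t : FTable) (extra : ℕ) (pad : Word),
      R (pr (uWord t extra pad) (kap k)) =
        redBits t extra (uWord t extra pad) k (2 ^ (2 * (k + 3) + 1)) := by
  obtain ⟨R, hR, hR'⟩ := redBits_pt
  refine ⟨R, hR, fun k t extra pad => ?_⟩
  exact hR' ((t, extra, Raw.mk pad), (Un.mk k, Un.mk (2 ^ (2 * (k + 3) + 1))))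

/-- The same with the clean program written out. -/
theorem exists_reduction_prog : ∃ (p : Prog) (w c : ℕ) (R : Word → Word), 2 ≤ w ∧
    Clean ∅ p w R (pb c) ∧
    ∀ (k : ℕ) (t : FTable) (extra : ℕ) (pad : Word),
      R (pr (uWord t extra pad) (kap k)) =
        redBits t extra (uWord t extra pad) k (2 ^ (2 * (k + 3) + 1)) := by
  obtain ⟨R, ⟨p, w, c, hw, hp⟩, h⟩ := exists_reduction
  exact ⟨p, w, c, R, hw, hp, h⟩

end Vale.Agent.P310
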