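import Vale.Agent.P310.NumDefs
import Vale.Agent.Lib.PolyTime.Bitwise
import Vale.Agent.Lib.PolyTime.NatArith2
import Vale.Agent.Lib.PolyTime.Lists3
import Vale.Agent.Lib.PolyTime.Lists2

/-!
# P310, W6b: the adjacency bits are computable in polynomial time

`PTD A D`: the fields of the Horn data `D a` are computable in polynomial time from `a`.
All statements are contextual: the parameters `k`, `F`, `N` are computed from the same argument.
Only `k` and `N` have to be polynomially bounded (they occur as lengths of loops).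
-/

namespace Vale.Agent.P310

open Vale.Agent.Lib.PolyTime

variable {A : Set Word} {α β : Type*} [Enc α] [Enc β]

/-- The Horn data `D a` are computable in polynomial time. -/
structure PTD (A : Set Word) (D : α → HData) : Prop where
  b : PT A fun a => (D a).b
  h : PT A fun a => (D a).h
  nC : PT A fun a => (D a).nC
  rules : PT A fun a => (D a).rules

namespace PTD

variable {D : α → HData} {k F N ρ j e t al u l x y c m r s : α → ℕ} {par : α → Bool}

theorem comp (hD : PTD A D) {f : β → α} (hf : PT A f) : PTD A fun a => D (f a) :=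
  ⟨hD.b.comp hf, hD.h.comp hf, hD.nC.comp hf, hD.rules.comp hf⟩

theorem nR (hD : PTD A D) : PT A fun a => (D a).nR := PT.length hD.rules

theorem rule (hD : PTD A D) (hρ : PT A ρ) : PT A fun a => (D a).rule (ρ a) :=
  PT.getD hD.rules hρ (PT.const _)

theorem _root_.Vale.Agent.P310.PT.lineY {n q : α → ℕ} (hn : PT A n) (hq : PT A q) :
    PT A fun a => lineY (n a) (q a) := by
  unfold Vale.Agent.P310.lineY
  fun_prop

theorem _root_.Vale.Agent.P310.PT.lineB {n q : α → ℕ} (hn : PT A n) (hq : PT A q) :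
    PT A fun a => lineB (n a) (q a) :=
  hq.mul (hq.mul (PT.lineY hn hq))

theorem _root_.Vale.Agent.P310.PT.lineIdx {n q ρ b : α → ℕ} (hn : PT A n) (hq : PT A q)
    (hρ : PT A ρ) (hb : PT A b) : PT A fun a => lineIdx (n a) (q a) (ρ a) (b a) :=
  (hρ.mul (PT.lineB hn hq)).add hb

theorem _root_.Vale.Agent.P310.PT.lineAt {n q ρ b l : α → ℕ} (hn : PT A n) (hq : PT A q)
    (hρ : PT A ρ) (hb : PT A b) (hl : PT A l) :
    PT A fun a => lineAt (n a) (q a) (ρ a) (b a) (l a) :=
  (hl.mul (hq.mul (PT.lineY hn hq))).add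
    ((((PT.lineIdx hn hq hρ hb).div (PT.lineY hn hq)).mul hl).add
      ((PT.lineIdx hn hq hρ hb).mod (PT.lineY hn hq)))

theorem nB (hD : PTD A D) (hk : PT A k) : PT A fun a => (D a).nB (k a) :=
  PT.lineB hD.nR (hk.add (PT.const 3))

theorem nM (hD : PTD A D) (hk : PT A k) : PT A fun a => (D a).nM (k a) :=
  hD.nR.mul (hD.nB hk)

theorem nV (hD : PTD A D) (hk : PT A k) : PT A fun a => (D a).nV (k a) :=
  (hD.nC.mul (hD.nM hk)).mul (hk.mul hD.b)

theorem nRow (hD : PTD A D) (hk : PT A k) : PT A fun a => (D a).nRow (k a) :=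
  (hD.nR.mul (hD.nM hk)).mul (hk.mul hD.b)

theorem nE (hD : PTD A D) (hk : PT A k) : PT A fun a => (D a).nE (k a) :=
  (hD.nRow hk).add ((hD.nM hk).add (PT.const 1))

theorem nU (hD : PTD A D) (hk : PT A k) (hF : PT A F) : PT A fun a => (D a).nU (k a) (F a) :=
  ((hD.nV hk).mul (PT.const 2)).add ((hD.nE hk).mul hF)

theorem bigB (hD : PTD A D) (hk : PT A k) (hF : PT A F) : PT A fun a => (D a).bigB (k a) (F a) :=
  (hD.nU hk hF).add (PT.const 1)

theorem nL (hD : PTD A D) (hk : PT A k) (hF : PT A F) : PT A fun a => (D a).nL (k a) (F a) :=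
  ((hD.nV hk).add (hD.nE hk)).mul (hD.bigB hk hF)

theorem nTot (hD : PTD A D) (hk : PT A k) (hF : PT A F) : PT A fun a => (D a).nTot (k a) (F a) :=
  (hD.nU hk hF).mul ((hD.nL hk hF).add (PT.const 1))

theorem varIdx (hD : PTD A D) (hk : PT A k) (hc : PT A c) (hm : PT A m) (hr : PT A r)
    (hs : PT A s) : PT A fun a => (D a).varIdx (k a) (c a) (m a) (r a) (s a) :=
  (hs.add (hD.b.mul hr)).add ((hk.mul hD.b).mul (hm.add ((hD.nM hk).mul hc)))

/-- digit operations of a rule -/
theorem op (hD : PTD A D) (hρ : PT A ρ) (hj : PT A j) : PT A fun a => ((D a).rule (ρ a)).op (j a) :=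
  PT.getD (hD.rule hρ).snd.snd hj (PT.const _)

theorem _root_.Vale.Agent.P310.PT.inDom {o : α → DOp} {d : α → ℕ} (ho : PT A o) (hd : PT A d) :
    PT A fun a => decide ((o a).inDom (d a)) :=
  ((PT.le ho.fst hd).and (PT.lt hd ho.snd.fst)).congr fun a => by
    rw [← Bool.decide_and]
    rfl

theorem _root_.Vale.Agent.P310.PT.dopVal {o : α → DOp} {b d : α → ℕ} (ho : PT A o) (hb : PT A b)
    (hd : PT A d) : PT A fun a => (o a).val (b a) (d a) :=
  PT.mod (((ho.snd.snd.fst.mul hd).add ho.snd.snd.snd).sub (PT.const 1)) hb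

theorem actN (hD : PTD A D) (hk : PT A k) (he : PT A e) (ht : PT A t) :
    PT A fun a => (D a).actN (k a) (e a) (t a) := by
  have hkb := hk.mul hD.b
  have ha := (he.mod hkb).mod hD.b
  have hr := (he.mod hkb).div hD.b
  have hρ := (he.div hkb).div (hD.nM hk)
  have hk3 := hk.add (PT.const (A := A) (α := α) 3)
  have h2k := (PT.const (A := A) (α := α) 2).mul hk3
  exact PT.ite (p := fun a => e a < (D a).nRow (k a)) (he.lt (hD.nRow hk))
    (PT.and (PT.inDom (hD.op hρ (hr.mod hD.h)) ha)
      (PT.or (PT.and (ht.lt h2k) ((ht.div hk3).lt (PT.length (hD.rule hρ).fst)))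
        (ht.eqNat h2k)))
    (ht.lt hk)

theorem svN (hD : PTD A D) (hk : PT A k) (he : PT A e) (ht : PT A t) :
    PT A fun a => (D a).svN (k a) (e a) (t a) := by
  have hkb := hk.mul hD.b
  have ha := (he.mod hkb).mod hD.b
  have hr := (he.mod hkb).div hD.b
  have hm := (he.div hkb).mod (hD.nM hk)
  have hρ := (he.div hkb).div (hD.nM hk)
  have hk3 := hk.add (PT.const (A := A) (α := α) 3)
  have h2k := (PT.const (A := A) (α := α) 2).mul hk3
  have hnB := hD.nB hk
  exact PT.ite (p := fun a => e a < (D a).nRow (k a)) (he.lt (hD.nRow hk))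
    (PT.ite (p := fun a => t a < 2 * (k a + 3)) (ht.lt h2k)
      (hD.varIdx hk (PT.getD (hD.rule hρ).fst (ht.div hk3) (PT.const 0))
        ((PT.lineAt hD.nR hk3 (hm.div hnB) (hm.mod hnB) (ht.mod hk3)).add (hnB.mul hρ)) hr ha)
      (hD.varIdx hk (hD.rule hρ).snd.fst hm hr (PT.dopVal (hD.op hρ (hr.mod hD.h)) hD.b ha)))
    (PT.ite (p := fun a => e a < (D a).nRow (k a) + (D a).nM (k a))
      (he.lt ((hD.nRow hk).add (hD.nM hk)))
      (hD.varIdx hk (PT.const 0) (he.sub (hD.nRow hk)) (ht.mod hk) (PT.const 0))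
      (hD.varIdx hk (PT.const 1) (PT.const 0) (ht.mod hk) (PT.const 0)))

/-- the slots -/
theorem slots (hk : PT A k) (hkb : PBd k) : PT A fun a => List.range (2 * (k a + 3) + 1) :=
  PT.range (by fun_prop) (by fun_prop)

theorem okN (hD : PTD A D) (hk : PT A k) (hkb : PBd k) (hpar : PT A par) (he : PT A e)
    (hal : PT A al) : PT A fun a => (D a).okN (k a) (par a) (e a) (al a) := by
  refine PT.eqNat ((PT.length (PT.filter (slots hk hkb) ?_)).mod (PT.const 2)) ?_
  · exact ((hD.comp PT.fst').actN (hk.comp PT.fst') (he.comp PT.fst') PT.snd').and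
      (PT.testBit (hal.comp PT.fst') PT.snd')
  · refine PT.ite ((hpar.and (he.eqNat ((hD.nRow hk).add (hD.nM hk)))).congr fun a => ?_)
      (PT.const 1) (PT.const 0)
    simp

theorem eqBool {f g : α → Bool} (hf : PT A f) (hg : PT A g) : PT A fun a => decide (f a = g a) :=
  (hf.xor hg).not.congr fun a => by cases f a <;> cases g a <;> rfl

theorem incN (hD : PTD A D) (hk : PT A k) (hkb : PBd k) (hpar : PT A par) (hv : PT A x)
    (hs : PT A s) (he : PT A e) (hal : PT A al) :
    PT A fun a => (D a).incN (k a) (par a) (x a) (s a) (e a) (al a) := by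
  refine (hD.okN hk hkb hpar he hal).and (PT.any (slots hk hkb) ?_)
  exact ((hD.comp PT.fst').actN (hk.comp PT.fst') (he.comp PT.fst') PT.snd').and
    ((((hD.comp PT.fst').svN (hk.comp PT.fst') (he.comp PT.fst') PT.snd').eqNat
      (hv.comp PT.fst')).and (eqBool (PT.testBit (hal.comp PT.fst') PT.snd')
        ((hs.comp PT.fst').eqNat (PT.const 1))))

theorem baseAdjN (hD : PTD A D) (hk : PT A k) (hkb : PBd k) (hF : PT A F) (hpar : PT A par)
    (hx : PT A x) (hy : PT A y) :
    PT A fun a => (D a).baseAdjN (k a) (F a) (par a) (x a) (y a) := by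
  have hV := (hD.nV hk).mul (PT.const 2)
  exact PT.ite (p := fun a => x a < (D a).nV (k a) * 2) (hx.lt hV)
    (PT.ite (p := fun a => y a < (D a).nV (k a) * 2) (hy.lt hV) (PT.const false)
      (hD.incN hk hkb hpar (hx.div (PT.const 2)) (hx.mod (PT.const 2)) ((hy.sub hV).div hF)
        ((hy.sub hV).mod hF)))
    (PT.ite (p := fun a => y a < (D a).nV (k a) * 2) (hy.lt hV)
      (hD.incN hk hkb hpar (hy.div (PT.const 2)) (hy.mod (PT.const 2)) ((hx.sub hV).div hF)
        ((hx.sub hV).mod hF)) (PT.const false))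

theorem itemN (hD : PTD A D) (hk : PT A k) (hF : PT A F) (hx : PT A x) :
    PT A fun a => (D a).itemN (k a) (F a) (x a) := by
  have hV := (hD.nV hk).mul (PT.const 2)
  exact PT.ite (p := fun a => x a < (D a).nV (k a) * 2) (hx.lt hV) (hx.div (PT.const 2))
    ((hD.nV hk).add ((hx.sub hV).div hF))

theorem liveN (hD : PTD A D) (hk : PT A k) (hkb : PBd k) (hF : PT A F) (hpar : PT A par)
    (hx : PT A x) : PT A fun a => (D a).liveN (k a) (F a) (par a) (x a) := by
  have hV := (hD.nV hk).mul (PT.const 2)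
  exact PT.ite (p := fun a => x a < (D a).nV (k a) * 2) (hx.lt hV) (PT.const true)
    (hD.okN hk hkb hpar ((hx.sub hV).div hF) ((hx.sub hV).mod hF))

theorem leafN (hD : PTD A D) (hk : PT A k) (hkb : PBd k) (hF : PT A F) (hpar : PT A par)
    (hx : PT A x) (hl : PT A l) : PT A fun a => (D a).leafN (k a) (F a) (par a) (x a) (l a) :=
  (hD.liveN hk hkb hF hpar hx).and
    (hl.lt (((hD.itemN hk hF hx).add (PT.const 1)).mul (hD.bigB hk hF)))

theorem adjN (hD : PTD A D) (hk : PT A k) (hkb : PBd k) (hF : PT A F) (hpar : PT A par)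
    (hx : PT A x) (hy : PT A y) : PT A fun a => (D a).adjN (k a) (F a) (par a) (x a) (y a) := by
  have hL := (hD.nL hk hF).add (PT.const 1)
  have hu := hx.div hL
  have hl := hx.mod hL
  have hu' := hy.div hL
  have hl' := hy.mod hL
  have h0 := hl.eqNat (PT.const 0)
  have h0' := hl'.eqNat (PT.const 0)
  exact (hx.lt (hD.nTot hk hF)).and ((hy.lt (hD.nTot hk hF)).and
    ((h0.and (h0'.and (hD.baseAdjN hk hkb hF hpar hu hu'))).or
      ((hu.eqNat hu').and
        ((h0.and (h0'.not.and (hD.leafN hk hkb hF hpar hu (hl'.sub (PT.const 1))))).or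
          (h0'.and (h0.not.and (hD.leafN hk hkb hF hpar hu (hl.sub (PT.const 1)))))))))

/-- The adjacency bits are computable in polynomial time. -/
theorem bitsN (hD : PTD A D) (hk : PT A k) (hkb : PBd k) (hF : PT A F) (hpar : PT A par)
    (hN : PT A N) (hNb : PBd N) : PT A fun a => (D a).bitsN (k a) (F a) (par a) (N a) := by
  have hR := PT.range hN hNb
  refine PT.flatMap hR (PT.map (hR.comp PT.fst') ?_)
  have h1 : PT A fun p : (α × ℕ) × ℕ => p.1.1 := PT.fst'.fst
  exact (hD.comp h1).adjN (hk.comp h1) (hkb.comp h1) (hF.comp h1) (hpar.comp h1) PT.fst'.snd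
    PT.snd'

/-- The number of vertices is polynomially bounded. -/
theorem pbd_nTot (hD : PTD A D) (hbb : PBd fun a => (D a).b) (hC : PBd fun a => (D a).nC)
    (hkb : PBd k) (hFb : PBd F) : PBd fun a => (D a).nTot (k a) (F a) := by
  have hR : PBd fun a => (D a).nR := PBd.length hD.rules
  have hY : PBd fun a => lineY (D a).nR (k a + 3) :=
    hR.mul ((hkb.add (PBd.const 3)).pow 2)
  have hB : PBd fun a => (D a).nB (k a) :=
    (hkb.add (PBd.const 3)).mul ((hkb.add (PBd.const 3)).mul hY)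
  have hM : PBd fun a => (D a).nM (k a) := hR.mul hB
  have hV : PBd fun a => (D a).nV (k a) := (hC.mul hM).mul (hkb.mul hbb)
  have hRow : PBd fun a => (D a).nRow (k a) := (hR.mul hM).mul (hkb.mul hbb)
  have hE : PBd fun a => (D a).nE (k a) := hRow.add (hM.add (PBd.const 1))
  have hU : PBd fun a => (D a).nU (k a) (F a) := (hV.mul (PBd.const 2)).add (hE.mul hFb)
  have hL : PBd fun a => (D a).nL (k a) (F a) := (hV.add hE).mul (hU.add (PBd.const 1))
  exact hU.mul (hL.add (PBd.const 1))

end PTD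

end Vale.Agent.P310
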