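import Vale.Agent.P310.H260.Gen
import Vale.Agent.P310.H855.BitsPT

/-!
# P310: the generator of the Horn data is computable in polynomial time

Contextual form: table, input word, base `b` and number of digits `g` are computed from the same
argument; `b` and `g` have to be polynomially bounded.
-/

namespace Vale.Agent.P310

open Vale.Agent.Lib.PolyTime

variable {A : Set Word} {α β : Type*} [Enc α] [Enc β]

namespace GenPT

variable {b g s a' i j d u v n tag c x y op rd e lo hi : α → ℕ} {w : α → List Bool}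
  {t : α → FTable} {o o' : α → DOp}

theorem ty (hb : PT A b) (htag : PT A tag) (hu : PT A u) (hv : PT A v) :
    PT A fun a => Gen.ty (b a) (tag a) (u a) (v a) := by
  unfold Gen.ty
  fun_prop

theorem keep (hb : PT A b) : PT A fun a => Gen.keep (b a) := by
  unfold Gen.keep
  fun_prop

theorem inc (hb : PT A b) : PT A fun a => Gen.inc (b a) := by
  unfold Gen.inc
  fun_prop

theorem dec (hb : PT A b) : PT A fun a => Gen.dec (b a) := by
  unfold Gen.dec
  fun_prop

theorem sett (hu : PT A u) (hv : PT A v) : PT A fun a => Gen.sett (u a) (v a) := by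
  unfold Gen.sett
  fun_prop

theorem forget (hb : PT A b) : PT A fun a => Gen.forget (b a) := by
  unfold Gen.forget
  fun_prop

theorem ge (hb : PT A b) (hu : PT A u) : PT A fun a => Gen.ge (b a) (u a) := by
  unfold Gen.ge
  fun_prop

theorem keepL (hb : PT A b) (hg : PT A g) (hgb : PBd g) : PT A fun a => Gen.keepL (b a) (g a) :=
  PT.replicate hg hgb (keep hb)

theorem zeroL (hg : PT A g) (hgb : PBd g) : PT A fun a => Gen.zeroL (g a) :=
  PT.replicate hg hgb (PT.const _)

theorem one (hb : PT A b) (hg : PT A g) (hgb : PBd g) (ho : PT A o) (hj : PT A j) (hjb : PBd j)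
    (ho' : PT A o') : PT A fun a => Gen.one (b a) (g a) (o a) (j a) (o' a) :=
  PT.append (PT.replicate hj hjb ho) (PT.cons ho' (PT.replicate ((hg.sub (PT.const 1)).sub hj)
    (hgb.mono fun a => by omega) (keep hb)))

theorem incL (hb : PT A b) (hg : PT A g) (hgb : PBd g) (hj : PT A j) (hjb : PBd j) :
    PT A fun a => Gen.incL (b a) (g a) (j a) :=
  one hb hg hgb (sett (hb.sub (PT.const 1)) (PT.const 0)) hj hjb (inc hb)

theorem decL (hb : PT A b) (hg : PT A g) (hgb : PBd g) (hj : PT A j) (hjb : PBd j) :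
    PT A fun a => Gen.decL (b a) (g a) (j a) :=
  one hb hg hgb (sett (PT.const 0) (hb.sub (PT.const 1))) hj hjb (dec hb)

theorem geL (hb : PT A b) (hg : PT A g) (hgb : PBd g) (hn : PT A n) (hj : PT A j) (hjb : PBd j) :
    PT A fun a => Gen.geL (b a) (g a) (n a) (j a) :=
  one hb hg hgb (keep hb) hj hjb (ge hb (PT.ite (hj.eqNat (PT.const 0)) hn (PT.const 1)))

/-! ### Loops over ranges -/

theorem rangeUn (hn : PT A n) (hnb : PBd n) : PT A fun a => (List.range (n a)).map Un.mk :=
  (PT.map (PT.range hn hnb) (f := fun a j => Un.mk (Min.min j (n a)))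
    (PT.mkUn (PT.min PT.snd' (hn.comp PT.fst'))
      ((hnb.comp (PT.fst' (A := A))).mono fun a => min_le_right _ _))).congr fun a =>
    List.map_congr_left fun j hj => by rw [min_eq_left (List.mem_range.1 hj).le]

theorem mapRange {f : α → ℕ → β} (hn : PT A n) (hnb : PBd n)
    (hf : PT A fun p : α × Un => f p.1 p.2.v) : PT A fun a => (List.range (n a)).map (f a) :=
  (PT.map (f := fun a (p : Un) => f a p.v) (rangeUn hn hnb) hf).congr fun a => by
    rw [List.map_map]
    rfl

theorem flatMapRange {f : α → ℕ → List β} (hn : PT A n) (hnb : PBd n)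
    (hf : PT A fun p : α × Un => f p.1 p.2.v) :
    PT A fun a => (List.range (n a)).flatMap (f a) :=
  (PT.flatten (mapRange hn hnb hf)).congr fun a => by rw [List.flatMap_def]

/-! ### The rules -/

/-- the rule with one premise -/
theorem rule1 {p c : α → ℕ} {l : α → List DOp} (hp : PT A p) (hc : PT A c) (hl : PT A l) :
    PT A fun a => (([p a], c a, l a) : HRule) :=
  PT.pair (PT.cons hp PT.nil) (PT.pair hc hl)

/-- the rule with two premises -/
theorem rule2 {p p' c : α → ℕ} {l : α → List DOp} (hp : PT A p) (hp' : PT A p') (hc : PT A c)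
    (hl : PT A l) : PT A fun a => (([p a, p' a], c a, l a) : HRule) :=
  PT.pair (PT.cons hp (PT.cons hp' PT.nil)) (PT.pair hc hl)

theorem inputRules (hw : PT A w) (hb : PT A b) (hg : PT A g) (hgb : PBd g) :
    PT A fun a => Gen.inputRules (w a) (b a) (g a) := by
  refine mapRange (PT.length hw) (PBd.length hw) ?_
  have hj : PT A fun p : α × Un => p.2.v := PT.unVal PT.snd'
  refine rule1 (PT.const _) (ty (hb.comp PT.fst') (PT.const _) (PT.const _) ?_)
    (PT.append (zeroL (hg.comp PT.fst') (hgb.comp (PT.fst' (A := A))))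
      (PT.cons (sett (PT.const _) hj) (PT.replicate ((hg.comp PT.fst').sub (PT.const 1))
        ((hgb.comp (PT.fst' (A := A))).mono fun a => Nat.sub_le _ _) (PT.const _))))
  exact PT.ite (p := fun p : α × Un => (w p.1).getD p.2.v false = true)
    ((PT.getD (hw.comp PT.fst') hj (PT.const false)).congr fun p => by simp)
    (PT.const 2) (PT.const 1)

theorem startRules (hw : PT A w) (hb : PT A b) (hbb : PBd b) (hg : PT A g) (hgb : PBd g) :
    PT A fun a => Gen.startRules (w a) (b a) (g a) := by
  have hj : PT A fun p : α × Un => p.2.v := PT.unVal PT.snd'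
  have hjb : PBd fun p : α × Un => p.2.v := PBd.unVal (PT.snd' (A := A))
  have hb' : PT A fun p : α × Un => b p.1 := hb.comp PT.fst'
  have hg' : PT A fun p : α × Un => g p.1 := hg.comp PT.fst'
  have hgb' : PBd fun p : α × Un => g p.1 := hgb.comp (PT.fst' (A := A))
  have hz := zeroL hg hgb
  have hk := keepL hb hg hgb
  have hk' := keepL hb' hg' hgb'
  have hE : PT A fun a => Gen.tE (b a) := ty hb (PT.const _) (PT.const _) (PT.const _)
  have hE' : PT A fun a => Gen.tE' (b a) := ty hb (PT.const _) (PT.const _) (PT.const _)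
  have hEc : PT A fun p : α × Un => Gen.tE (b p.1) := hE.comp PT.fst'
  have hEc' : PT A fun p : α × Un => Gen.tE' (b p.1) := hE'.comp PT.fst'
  refine PT.append (PT.append (PT.append ?_ ?_) ?_) ?_
  · exact PT.cons (rule1 (PT.const _) (ty hb (PT.const _) (PT.const _) (PT.const _))
      (PT.append hz hz)) (PT.cons (rule1 (PT.const _) hE (PT.append hz hz))
        (PT.cons (rule1 hE' hE (PT.append hk hk)) PT.nil))
  · exact mapRange hg hgb (rule1 hEc hEc' (PT.append hk' (incL hb' hg' hgb' hj hjb)))
  · exact mapRange hg hgb (rule1 hEc (ty hb' (PT.const _) (PT.const _) (PT.const _))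
      (PT.append hk' (geL hb' hg' hgb' ((PT.length hw).comp PT.fst') hj hjb)))
  · exact mapRange (hb.sub (PT.const 1)) (hbb.mono fun a => Nat.sub_le _ _)
      (rule1 hEc (ty hb' (PT.const _) (hj.add (PT.const 1)) (PT.const _)) (PT.append hk' hk'))

theorem cellRules (hb : PT A b) (hg : PT A g) (hgb : PBd g) (hs : PT A s) (ha : PT A a')
    (hop : PT A op) (hj : PT A j) (hi : PT A i) (hd : PT A d) :
    PT A fun a => Gen.cellRules (b a) (g a) (s a) (a' a) (op a) (j a) (i a) (d a) := by
  have he : PT A fun p : α × Un => p.2.v := PT.unVal PT.snd'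
  have heb : PBd fun p : α × Un => p.2.v := PBd.unVal (PT.snd' (A := A))
  have hb' : PT A fun p : α × Un => b p.1 := hb.comp PT.fst'
  have hg' : PT A fun p : α × Un => g p.1 := hg.comp PT.fst'
  have hgb' : PBd fun p : α × Un => g p.1 := hgb.comp (PT.fst' (A := A))
  have hk := keepL hb hg hgb
  have hk' := keepL hb' hg' hgb'
  have hF : PT A fun a => Gen.tFire (b a) (s a) (a' a) := ty hb (PT.const _) hs ha
  have hC : PT A fun a => Gen.tCell (b a) (i a) (d a) := ty hb (PT.const _) hi hd
  have hCN : PT A fun a => Gen.tCellN (b a) (i a) (d a) := ty hb (PT.const _) hi hd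
  have hF' : PT A fun p : α × Un => Gen.tFire (b p.1) (s p.1) (a' p.1) := hF.comp PT.fst'
  have hC' : PT A fun p : α × Un => Gen.tCell (b p.1) (i p.1) (d p.1) := hC.comp PT.fst'
  have hCN' : PT A fun p : α × Un => Gen.tCellN (b p.1) (i p.1) (d p.1) := hCN.comp PT.fst'
  refine PT.ite (p := fun a => i a = j a ∧ op a = 1)
    (PT.decide_and (hi.eqNat hj) (hop.eqNat (PT.const 1))) ?_
    (PT.ite (p := fun a => i a = j a ∧ op a = 2)
      (PT.decide_and (hi.eqNat hj) (hop.eqNat (PT.const 2))) ?_ ?_)
  · exact mapRange hg hgb (rule2 hF' hC' hCN' (PT.append hk' (incL hb' hg' hgb' he heb)))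
  · exact mapRange hg hgb (rule2 hF' hC' hCN' (PT.append hk' (decL hb' hg' hgb' he heb)))
  · exact PT.cons (rule2 hF hC hCN (PT.append hk hk)) PT.nil

theorem actRules {act : α → FAct} (hb : PT A b) (hbb : PBd b) (hg : PT A g) (hgb : PBd g)
    (hs : PT A s) (hrd : PT A rd) (ha : PT A a') (hact : PT A act) :
    PT A fun a => Gen.actRules (b a) (g a) (s a) (rd a) (a' a) (act a) := by
  have he : PT A fun p : α × Un => p.2.v := PT.unVal PT.snd'
  have heb : PBd fun p : α × Un => p.2.v := PBd.unVal (PT.snd' (A := A))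
  have hb' : PT A fun p : α × Un => b p.1 := hb.comp PT.fst'
  have hg' : PT A fun p : α × Un => g p.1 := hg.comp PT.fst'
  have hgb' : PBd fun p : α × Un => g p.1 := hgb.comp (PT.fst' (A := A))
  have hz := zeroL hg hgb
  have hk := keepL hb hg hgb
  have hz' := zeroL hg' hgb'
  have hk' := keepL hb' hg' hgb'
  have hF : PT A fun a => Gen.tFire (b a) (s a) (a' a) := ty hb (PT.const _) hs ha
  have hG : PT A fun a => Gen.tFire' (b a) (s a) (a' a) := ty hb (PT.const _) hs ha
  have hF' : PT A fun p : α × Un => Gen.tFire (b p.1) (s p.1) (a' p.1) := hF.comp PT.fst'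
  have hG' : PT A fun p : α × Un => Gen.tFire' (b p.1) (s p.1) (a' p.1) := hG.comp PT.fst'
  refine PT.append (PT.append (PT.append (PT.append ?_ ?_) ?_) ?_) ?_
  · exact PT.cons (rule2 (ty hb (PT.const _) hs (PT.const _)) (ty hb (PT.const _) hrd ha) hF
      (PT.append hk hz)) (PT.cons (rule1 hG hF (PT.append hk hk)) PT.nil)
  · exact mapRange hg hgb (rule1 hF' hG' (PT.append hk' (incL hb' hg' hgb' he heb)))
  · exact mapRange hg hgb (rule1 hF' (ty hb' (PT.const _) ((hact.snd.snd.snd).comp PT.fst')
      (PT.const _)) (PT.append (incL hb' hg' hgb' he heb) hz'))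
  · exact PT.ite (p := fun a => (act a).1 = 1) (hact.fst.eqNat (PT.const 1))
      (PT.cons (rule1 hF (ty hb (PT.const _) hact.snd.fst (hact.snd.snd.fst.add (PT.const 1)))
        (PT.append hk hz)) PT.nil) PT.nil
  · refine flatMapRange hb hbb (flatMapRange hb' (hbb.comp (PT.fst' (A := A))) ?_)
    have h1 : PT A fun p : (α × Un) × Un => p.1.1 := PT.fst'.fst
    exact cellRules (hb.comp h1) (hg.comp h1) (hgb.comp h1) (hs.comp h1) (ha.comp h1)
      (hact.fst.comp h1) (hact.snd.fst.comp h1) (he.comp PT.fst') (PT.unVal PT.snd')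

theorem tabRules (ht : PT A t) (hb : PT A b) (hbb : PBd b) (hg : PT A g) (hgb : PBd g) :
    PT A fun a => Gen.tabRules (t a) (b a) (g a) := by
  have h2 : PT A fun p : α × Un => ((t p.1).getD p.2.v (0, [])).2 :=
    (PT.getD (ht.comp PT.fst') (PT.unVal PT.snd') (PT.const _)).snd
  refine flatMapRange (PT.length ht) (PBd.length ht) (flatMapRange (PT.length h2) (PBd.length h2) ?_)
  have h1 : PT A fun p : (α × Un) × Un => p.1.1 := PT.fst'.fst
  have hs : PT A fun p : (α × Un) × Un => p.1.2.v := PT.unVal PT.fst'.snd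
  have hx : PT A fun p : (α × Un) × Un => p.2.v := PT.unVal PT.snd'
  exact actRules (hb.comp h1) (hbb.comp h1) (hg.comp h1) (hgb.comp h1) hs
    (PT.getD (ht.comp h1) hs (PT.const _)).fst hx
    (PT.getD (h2.comp PT.fst') hx ((PT.const 0).pair ((PT.const 0).pair ((PT.const 0).pair hs))))

theorem nextRules (hb : PT A b) (hbb : PBd b) (hg : PT A g) (hgb : PBd g) :
    PT A fun a => Gen.nextRules (b a) (g a) := by
  refine flatMapRange hb hbb (flatMapRange (hb.comp PT.fst') (hbb.comp (PT.fst' (A := A)))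
    (mapRange (hg.comp PT.fst'.fst)
      (hgb.comp (PT.fst' (A := A) (α := α × Un) (β := Un)).fst) ?_))
  have h1 : PT A fun p : ((α × Un) × Un) × Un => p.1.1.1 := PT.fst'.fst.fst
  have hi : PT A fun p : ((α × Un) × Un) × Un => p.1.1.2.v := PT.unVal PT.fst'.fst.snd
  have hd : PT A fun p : ((α × Un) × Un) × Un => p.1.2.v := PT.unVal PT.fst'.snd
  have he : PT A fun p : ((α × Un) × Un) × Un => p.2.v := PT.unVal PT.snd'
  have heb : PBd fun p : ((α × Un) × Un) × Un => p.2.v := PBd.unVal (PT.snd' (A := A))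
  exact rule1 (ty (hb.comp h1) (PT.const _) hi hd) (ty (hb.comp h1) (PT.const _) hi hd)
    (PT.append (incL (hb.comp h1) (hg.comp h1) (hgb.comp h1) he heb)
      (keepL (hb.comp h1) (hg.comp h1) (hgb.comp h1)))

theorem rules (ht : PT A t) (hw : PT A w) (hb : PT A b) (hbb : PBd b) (hg : PT A g)
    (hgb : PBd g) : PT A fun a => Gen.rules (t a) (w a) (b a) (g a) :=
  PT.cons (rule1 (ty hb (PT.const _) (PT.const _) (PT.const _)) (PT.const _)
      (PT.append (PT.replicate hg hgb (forget hb)) (PT.replicate hg hgb (forget hb))))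
    (PT.append (inputRules hw hb hg hgb) (PT.append (startRules hw hb hbb hg hgb)
      (PT.append (tabRules ht hb hbb hg hgb) (nextRules hb hbb hg hgb))))

/-- The generator is computable in polynomial time. -/
theorem data (ht : PT A t) (hw : PT A w) (hb : PT A b) (hbb : PBd b) (hg : PT A g)
    (hgb : PBd g) : PTD A fun a => Gen.data (t a) (w a) (b a) (g a) where
  b := hb
  h := hg.add hg
  nC := (PT.const 2).add ((PT.const 8).mul (hb.mul hb))
  rules := rules ht hw hb hbb hg hgb

end GenPT

end Vale.Agent.P310
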