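import Vale.Agent.P310.H855.Reduction
import Vale.Agent.P310.H853.Plug

/-!
# P310: the reduction in the form used in the final assembly, and the lower bound
-/

namespace Vale.Agent.P310

open Vale.Agent.Lib.PolyTime

/-- The reduction: `RedSpec`, computable in polynomial time. -/
theorem exists_redSpec : ∃ R : Word → Word, RedSpec R ∧ FP ∅ R := by
  obtain ⟨R, hR, h⟩ := exists_reduction
  exact ⟨R, fun k => ⟨kap k, fun t extra pad => h k t extra pad⟩, hR⟩

/-- The time of any machine deciding `≡_k` is at least `n ^ (c k)` for all large `n`. -/
theorem strongLowerBound : StrongLowerBound := by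
  obtain ⟨R, hR, hR'⟩ := exists_redSpec
  exact strongLowerBound_of_red hR hR'

end Vale.Agent.P310
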